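import Vale.Agent.Helper26.KTV.Johnson

/-!
Sharp Poincare inequality for the Johnson graph on the `k`-subsets of a finite set `J`
(problem P335, general graphs): `2 * |J| * jV ≤ card * jD`, by the one-site recursion.
-/

set_option linter.unusedSectionVars false

namespace KTV

open Finset

namespace JD

section Sharp

variable {β : Type*} [DecidableEq β]

theorem jV_nonneg {X : Type*} (P : Finset X) (g : X → ℝ) : 0 ≤ jV P g := by
  unfold jV
  have h := Finset.sum_mul_sq_le_sq_mul_sq P (fun _ => (1 : ℝ)) g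
  simp only [one_mul, one_pow, sum_const, nsmul_eq_mul, mul_one] at h
  linarith

/-- double counting: pairs (`w`, a `k`-subset avoiding `w`) against pairs
(a `(k+1)`-subset, one of its elements) -/
theorem sum_erase_split (J : Finset β) (k : ℕ) (Φ : β → Finset β → ℝ) :
    ∑ w ∈ J, ∑ A ∈ (J.erase w).powersetCard k, Φ w A
      = ∑ S ∈ J.powersetCard (k + 1), ∑ i ∈ S, Φ i (S.erase i) := by
  rw [Finset.sum_sigma', Finset.sum_sigma']
  refine Finset.sum_nbij' (fun p => ⟨insert p.1 p.2, p.1⟩) (fun p => ⟨p.2, p.1.erase p.2⟩)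
    ?_ ?_ ?_ ?_ ?_
  · rintro ⟨w, A⟩ h
    simp only [mem_sigma, mem_powersetCard] at h ⊢
    obtain ⟨hw, hA, hc⟩ := h
    have hwA : w ∉ A := fun h' => by
      have := hA h'; simp at this
    refine ⟨⟨insert_subset hw (hA.trans (erase_subset _ _)), ?_⟩, mem_insert_self _ _⟩
    rw [card_insert_of_notMem hwA, hc]
  · rintro ⟨S, i⟩ h
    simp only [mem_sigma, mem_powersetCard] at h ⊢
    obtain ⟨⟨hS, hc⟩, hi⟩ := h
    refine ⟨hS hi, erase_subset_erase _ hS, ?_⟩
    rw [card_erase_of_mem hi, hc]; rfl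
  · rintro ⟨w, A⟩ h
    simp only [mem_sigma, mem_powersetCard] at h
    have hwA : w ∉ A := fun h' => by
      have := h.2.1 h'; simp at this
    simp [erase_insert hwA]
  · rintro ⟨S, i⟩ h
    simp only [mem_sigma, mem_powersetCard] at h
    simp [insert_erase h.2]
  · rintro ⟨w, A⟩ h
    simp only [mem_sigma, mem_powersetCard] at h
    have hwA : w ∉ A := fun h' => by
      have := h.2.1 h'; simp at this
    simp [erase_insert hwA]

/-- splitting a sum over the `(k+1)`-subsets of `J` according to `w ∈ S` -/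
theorem sum_split_at {J : Finset β} {w : β} (hw : w ∈ J) (k : ℕ) (F : Finset β → ℝ) :
    ∑ S ∈ J.powersetCard (k + 1), F S
      = ∑ S ∈ (J.erase w).powersetCard (k + 1), F S
        + ∑ A ∈ (J.erase w).powersetCard k, F (insert w A) := by
  have hw' : w ∉ J.erase w := notMem_erase w J
  conv_lhs => rw [← insert_erase hw]
  rw [powersetCard_succ_insert hw', sum_union (disj_aux hw' k), sum_image (inj_aux hw' k)]

/-- the Dirichlet form split at `w` -/
theorem jD_split_at {J : Finset β} {w : β} (hw : w ∈ J) (k : ℕ) (g : Finset β → ℝ) :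
    jD J (k + 1) g
      = jD (J.erase w) (k + 1) g + jD (J.erase w) k (fun A => g (insert w A))
        + 2 * ∑ A ∈ (J.erase w).powersetCard k, ∑ j ∈ J.erase w \ A,
            (g (insert w A) - g (insert j A)) ^ 2 := by
  have hw' : w ∉ J.erase w := notMem_erase w J
  conv_lhs => rw [← insert_erase hw]
  exact jD_insert hw' k g

/-- the cross terms of all sites add up to the Dirichlet form -/
theorem sum_cross (J : Finset β) (k : ℕ) (g : Finset β → ℝ) :
    ∑ w ∈ J, ∑ A ∈ (J.erase w).powersetCard k, ∑ j ∈ J.erase w \ A,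
        (g (insert w A) - g (insert j A)) ^ 2 = jD J (k + 1) g := by
  rw [sum_erase_split J k
    (fun w A => ∑ j ∈ J.erase w \ A, (g (insert w A) - g (insert j A)) ^ 2)]
  unfold jD
  refine sum_congr rfl fun S hS => sum_congr rfl fun i hi => ?_
  have h1 : J.erase i \ S.erase i = J \ S := by
    ext x
    simp only [mem_sdiff, mem_erase]
    constructor
    · rintro ⟨⟨hxi, hxJ⟩, hx⟩
      exact ⟨hxJ, fun hxS => hx ⟨hxi, hxS⟩⟩
    · rintro ⟨hxJ, hxS⟩
      exact ⟨⟨fun hxi => hxS (hxi ▸ hi), hxJ⟩, fun h => hxS h.2⟩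
  rw [h1, insert_erase hi]

theorem erase_sdiff_erase {J S : Finset β} {i : β} (hi : i ∈ S) :
    J.erase i \ S.erase i = J \ S := by
  ext x
  simp only [mem_sdiff, mem_erase]
  constructor
  · rintro ⟨⟨hxi, hxJ⟩, hx⟩
    exact ⟨hxJ, fun hxS => hx ⟨hxi, hxS⟩⟩
  · rintro ⟨hxJ, hxS⟩
    exact ⟨⟨fun hxi => hxS (hxi ▸ hi), hxJ⟩, fun h => hxS h.2⟩

/-- every element of `K` lies in `C(|K|-1, k)` of the `(k+1)`-subsets -/
theorem sum_inside_count (K : Finset β) (k : ℕ) (f : β → ℝ) :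
    ∑ S ∈ K.powersetCard (k + 1), ∑ i ∈ S, f i
      = (Nat.choose (K.card - 1) k : ℝ) * ∑ i ∈ K, f i := by
  rw [← sum_erase_split K k (fun i _ => f i), mul_sum]
  refine sum_congr rfl fun i hi => ?_
  rw [sum_const, card_powersetCard, card_erase_of_mem hi, nsmul_eq_mul]

/-- every ordered pair of distinct elements is separated (first in, second out) by
`C(|J|-2, k)` of the `(k+1)`-subsets -/
theorem sum_in_out (J : Finset β) (k : ℕ) (F : β → β → ℝ) :
    ∑ S ∈ J.powersetCard (k + 1), ∑ i ∈ S, ∑ j ∈ J \ S, F i j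
      = (Nat.choose (J.card - 2) k : ℝ) * ∑ i ∈ J, ∑ j ∈ J.erase i, F i j := by
  have h1 : ∑ S ∈ J.powersetCard (k + 1), ∑ i ∈ S, ∑ j ∈ J \ S, F i j
      = ∑ i ∈ J, ∑ A ∈ (J.erase i).powersetCard k, ∑ j ∈ J.erase i \ A, F i j := by
    rw [sum_erase_split J k (fun i A => ∑ j ∈ J.erase i \ A, F i j)]
    refine sum_congr rfl fun S hS => sum_congr rfl fun i hi => ?_
    rw [erase_sdiff_erase hi]
  rw [h1, mul_sum]
  refine sum_congr rfl fun i hi => ?_
  rw [swap_sum (J.erase i) k (fun _ j => F i j), sum_inside_count, card_erase_of_mem hi]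
  rfl

/-- the between-classes term of the one-site recursion -/
theorem between_bound {J : Finset β} {s : ℕ} (hJ : J.card = s + 1) (k : ℕ) (g : Finset β → ℝ) :
    ∑ w ∈ J, ((Nat.choose (s + 1) (k + 1) : ℝ)
          * (∑ A ∈ (J.erase w).powersetCard k, g (insert w A))
        - (Nat.choose s k : ℝ) * ∑ S ∈ J.powersetCard (k + 1), g S) ^ 2
      ≤ (Nat.choose (s + 1) (k + 1) : ℝ) * (Nat.choose (s - 1) k : ℝ)
          * jV (J.powersetCard (k + 1)) g := by
  obtain ⟨P, hP⟩ : ∃ P : Finset (Finset β), P = J.powersetCard (k + 1) := ⟨_, rfl⟩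
  obtain ⟨N, hN⟩ : ∃ N : ℝ, N = (Nat.choose (s + 1) (k + 1) : ℝ) := ⟨_, rfl⟩
  obtain ⟨N1, hN1⟩ : ∃ N1 : ℝ, N1 = (Nat.choose s k : ℝ) := ⟨_, rfl⟩
  obtain ⟨M, hM⟩ : ∃ M : ℝ, M = (Nat.choose (s - 1) k : ℝ) := ⟨_, rfl⟩
  obtain ⟨Tot, hTot⟩ : ∃ Tot : ℝ, Tot = ∑ S ∈ P, g S := ⟨_, rfl⟩
  obtain ⟨b, hb⟩ : ∃ b : β → ℝ, ∀ w, b w = ∑ A ∈ (J.erase w).powersetCard k, g (insert w A) :=
    ⟨_, fun _ => rfl⟩
  obtain ⟨h, hh⟩ : ∃ h : β → ℝ, ∀ w, h w = N * b w - N1 * Tot := ⟨_, fun _ => rfl⟩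
  obtain ⟨H, hH⟩ : ∃ H : Finset β → ℝ, ∀ S, H S = ∑ i ∈ S, h i := ⟨_, fun _ => rfl⟩
  have hgoal : ∑ w ∈ J, ((Nat.choose (s + 1) (k + 1) : ℝ)
          * (∑ A ∈ (J.erase w).powersetCard k, g (insert w A))
        - (Nat.choose s k : ℝ) * ∑ S ∈ J.powersetCard (k + 1), g S) ^ 2 = ∑ w ∈ J, h w ^ 2 := by
    refine sum_congr rfl fun w _ => ?_
    rw [hh w, hb w, hN, hN1, hTot, hP]
  rw [hgoal, ← hN, ← hM, ← hP]
  have hcardP : (P.card : ℝ) = N := by rw [hP, card_powersetCard, hJ, hN]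
  have hN0 : 0 ≤ N := by rw [hN]; exact Nat.cast_nonneg _
  have hM0 : 0 ≤ M := by rw [hM]; exact Nat.cast_nonneg _
  have hkN : ((s : ℝ) + 1) * N1 = N * ((k : ℝ) + 1) := by
    have := Nat.add_one_mul_choose_eq s k
    rw [hN, hN1]; exact_mod_cast this
  have hb_sum : ∑ w ∈ J, b w = ((k : ℝ) + 1) * Tot := by
    calc ∑ w ∈ J, b w = ∑ w ∈ J, ∑ A ∈ (J.erase w).powersetCard k, g (insert w A) :=
          sum_congr rfl (fun w _ => hb w)
      _ = ∑ S ∈ J.powersetCard (k + 1), ∑ i ∈ S, g (insert i (S.erase i)) :=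
          sum_erase_split J k (fun w A => g (insert w A))
      _ = ∑ S ∈ P, ((k : ℝ) + 1) * g S := by
          rw [hP]
          refine sum_congr rfl fun S hS => ?_
          have hc : S.card = k + 1 := (mem_powersetCard.mp hS).2
          have e : ∀ i ∈ S, g (insert i (S.erase i)) = g S := fun i hi => by rw [insert_erase hi]
          rw [sum_congr rfl e, sum_const, hc, nsmul_eq_mul]
          push_cast; ring
      _ = ((k : ℝ) + 1) * Tot := by rw [← mul_sum, hTot]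
  have hh_sum : ∑ w ∈ J, h w = 0 := by
    rw [sum_congr rfl (fun w _ => hh w), sum_sub_distrib, ← mul_sum, hb_sum, sum_const, hJ,
      nsmul_eq_mul]
    push_cast
    linear_combination (-Tot) * hkN
  have h_hb : ∑ w ∈ J, h w * b w = ∑ S ∈ P, g S * H S := by
    calc ∑ w ∈ J, h w * b w
        = ∑ w ∈ J, ∑ A ∈ (J.erase w).powersetCard k, h w * g (insert w A) :=
          sum_congr rfl (fun w _ => by rw [hb w, mul_sum])
      _ = ∑ S ∈ J.powersetCard (k + 1), ∑ i ∈ S, h i * g (insert i (S.erase i)) :=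
          sum_erase_split J k (fun w A => h w * g (insert w A))
      _ = ∑ S ∈ P, g S * H S := by
          rw [hP]
          refine sum_congr rfl fun S hS => ?_
          rw [hH S, mul_sum]
          exact sum_congr rfl (fun i hi => by rw [insert_erase hi, mul_comm])
  have hH_sum : ∑ S ∈ P, H S = 0 := by
    calc ∑ S ∈ P, H S = ∑ S ∈ J.powersetCard (k + 1), ∑ i ∈ S, h i := by
          rw [hP]; exact sum_congr rfl (fun S _ => hH S)
      _ = (Nat.choose (J.card - 1) k : ℝ) * ∑ i ∈ J, h i := sum_inside_count J k h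
      _ = 0 := by rw [hh_sum, mul_zero]
  have hsq : ∑ w ∈ J, h w ^ 2 = N * ∑ S ∈ P, g S * H S := by
    calc ∑ w ∈ J, h w ^ 2 = ∑ w ∈ J, (N * (h w * b w) - N1 * Tot * h w) := by
          refine sum_congr rfl fun w _ => ?_
          have e : h w ^ 2 = h w * (N * b w - N1 * Tot) := by rw [← hh w, sq]
          rw [e]; ring
      _ = N * ∑ w ∈ J, h w * b w - N1 * Tot * ∑ w ∈ J, h w := by
          rw [sum_sub_distrib, ← mul_sum, ← mul_sum]
      _ = N * ∑ S ∈ P, g S * H S := by rw [h_hb, hh_sum]; ring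
  -- Cauchy-Schwarz
  have hu : ∑ S ∈ P, (N * g S - Tot) * H S = N * ∑ S ∈ P, g S * H S := by
    calc ∑ S ∈ P, (N * g S - Tot) * H S = ∑ S ∈ P, (N * (g S * H S) - Tot * H S) :=
          sum_congr rfl (fun S _ => by ring)
      _ = N * ∑ S ∈ P, g S * H S - Tot * ∑ S ∈ P, H S := by
          rw [sum_sub_distrib, ← mul_sum, ← mul_sum]
      _ = N * ∑ S ∈ P, g S * H S := by rw [hH_sum]; ring
  have hu2 : ∑ S ∈ P, (N * g S - Tot) ^ 2 = N * jV P g := by
    calc ∑ S ∈ P, (N * g S - Tot) ^ 2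
        = ∑ S ∈ P, (N ^ 2 * g S ^ 2 - 2 * N * Tot * g S + Tot ^ 2) :=
          sum_congr rfl (fun S _ => by ring)
      _ = N ^ 2 * ∑ S ∈ P, g S ^ 2 - 2 * N * Tot * ∑ S ∈ P, g S + (P.card : ℝ) * Tot ^ 2 := by
          rw [sum_add_distrib, sum_sub_distrib, ← mul_sum, ← mul_sum, sum_const, nsmul_eq_mul]
      _ = N * jV P g := by
          unfold jV
          rw [hcardP, ← hTot]; ring
  have hCS := Finset.sum_mul_sq_le_sq_mul_sq P (fun S => N * g S - Tot) H
  rw [hu, hu2] at hCS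
  have hHH : ∑ S ∈ P, H S ^ 2 = M * ∑ w ∈ J, h w ^ 2 := by
    have e1 := sum_in_out J k (fun i j => h i * h j)
    have e2 : ∑ S ∈ J.powersetCard (k + 1), ∑ i ∈ S, ∑ j ∈ J \ S, h i * h j
        = - ∑ S ∈ P, H S ^ 2 := by
      rw [hP, ← sum_neg_distrib]
      refine sum_congr rfl fun S hS => ?_
      have hSJ : S ⊆ J := (mem_powersetCard.mp hS).1
      have e3 : ∑ j ∈ J \ S, h j = - H S := by
        have := Finset.sum_sdiff (f := h) hSJ
        rw [hh_sum] at this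
        rw [hH S]; linarith
      rw [← Finset.sum_mul_sum, e3, ← hH S]; ring
    have e4 : ∑ i ∈ J, ∑ j ∈ J.erase i, h i * h j = - ∑ w ∈ J, h w ^ 2 := by
      rw [← sum_neg_distrib]
      refine sum_congr rfl fun i hi => ?_
      rw [← mul_sum, Finset.sum_erase_eq_sub hi, hh_sum]; ring
    rw [e2, e4, hJ] at e1
    have e5 : (Nat.choose (s + 1 - 2) k : ℝ) = M := by
      rw [hM]; congr 2
    rw [e5] at e1
    linarith
  rw [hHH, ← hsq] at hCS
  -- hCS : (∑ h^2)^2 ≤ N * jV P g * (M * ∑ h^2)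
  have hX0 : 0 ≤ ∑ w ∈ J, h w ^ 2 := sum_nonneg fun w _ => sq_nonneg _
  have hV0 : 0 ≤ jV P g := jV_nonneg P g
  rcases hX0.eq_or_lt with hX | hX
  · rw [← hX]; positivity
  · have : (∑ w ∈ J, h w ^ 2) * (∑ w ∈ J, h w ^ 2) ≤ (N * M * jV P g) * (∑ w ∈ J, h w ^ 2) := by
      calc (∑ w ∈ J, h w ^ 2) * (∑ w ∈ J, h w ^ 2) = (∑ w ∈ J, h w ^ 2) ^ 2 := by ring
        _ ≤ N * jV P g * (M * ∑ w ∈ J, h w ^ 2) := hCS
        _ = (N * M * jV P g) * (∑ w ∈ J, h w ^ 2) := by ring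
    exact le_of_mul_le_mul_right this hX

/-- the induction step of the sharp Johnson inequality -/
theorem sharp_step {s : ℕ} (hs : 2 ≤ s)
    (ih : ∀ (J : Finset β), J.card = s → ∀ (k : ℕ) (g : Finset β → ℝ),
      2 * (s : ℝ) * jV (J.powersetCard k) g ≤ ((J.powersetCard k).card : ℝ) * jD J k g)
    {J : Finset β} (hJ : J.card = s + 1) {k : ℕ} (hk : k + 1 ≤ s) (g : Finset β → ℝ) :
    2 * ((s : ℝ) + 1) * jV (J.powersetCard (k + 1)) g
      ≤ ((J.powersetCard (k + 1)).card : ℝ) * jD J (k + 1) g := by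
  obtain ⟨N0, hN0⟩ : ∃ N0 : ℝ, N0 = (Nat.choose s (k + 1) : ℝ) := ⟨_, rfl⟩
  obtain ⟨N1, hN1⟩ : ∃ N1 : ℝ, N1 = (Nat.choose s k : ℝ) := ⟨_, rfl⟩
  obtain ⟨N, hN⟩ : ∃ N : ℝ, N = (Nat.choose (s + 1) (k + 1) : ℝ) := ⟨_, rfl⟩
  obtain ⟨M, hM⟩ : ∃ M : ℝ, M = (Nat.choose (s - 1) k : ℝ) := ⟨_, rfl⟩
  have hNsum : N = N1 + N0 := by
    rw [hN, hN0, hN1]; exact_mod_cast Nat.choose_succ_succ s k
  have hN0pos : 0 < N0 := by rw [hN0]; exact_mod_cast Nat.choose_pos hk
  have hN1pos : 0 < N1 := by rw [hN1]; exact_mod_cast Nat.choose_pos (by omega : k ≤ s)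
  have hNpos : 0 < N := by rw [hNsum]; linarith
  have hkN : ((s : ℝ) + 1) * N1 = N * ((k : ℝ) + 1) := by
    have := Nat.add_one_mul_choose_eq s k
    rw [hN, hN1]; exact_mod_cast this
  have hsM : (s : ℝ) * M = N0 * ((k : ℝ) + 1) := by
    have := Nat.add_one_mul_choose_eq (s - 1) k
    have e : s - 1 + 1 = s := by omega
    rw [e] at this
    rw [hM, hN0]; exact_mod_cast this
  have hMid : (s : ℝ) * N * M = ((s : ℝ) + 1) * N0 * N1 := by
    have hk1 : (0 : ℝ) < (k : ℝ) + 1 := by positivity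
    have : ((s : ℝ) * N * M) * ((k : ℝ) + 1) = (((s : ℝ) + 1) * N0 * N1) * ((k : ℝ) + 1) := by
      calc ((s : ℝ) * N * M) * ((k : ℝ) + 1) = (N * ((k : ℝ) + 1)) * ((s : ℝ) * M) := by ring
        _ = (((s : ℝ) + 1) * N1) * (N0 * ((k : ℝ) + 1)) := by rw [hkN, hsM]
        _ = (((s : ℝ) + 1) * N0 * N1) * ((k : ℝ) + 1) := by ring
    exact mul_right_cancel₀ hk1.ne' this
  obtain ⟨Tot, hTot⟩ : ∃ Tot : ℝ, Tot = ∑ S ∈ J.powersetCard (k + 1), g S := ⟨_, rfl⟩
  obtain ⟨Q, hQ⟩ : ∃ Q : ℝ, Q = ∑ S ∈ J.powersetCard (k + 1), g S ^ 2 := ⟨_, rfl⟩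
  obtain ⟨D, hDdef⟩ : ∃ D : ℝ, D = jD J (k + 1) g := ⟨_, rfl⟩
  have hcardP : ((J.powersetCard (k + 1)).card : ℝ) = N := by
    rw [card_powersetCard, hJ, hN]
  have hjV : jV (J.powersetCard (k + 1)) g = N * Q - Tot ^ 2 := by
    unfold jV; rw [hcardP, hQ, hTot]
  obtain ⟨C, hC⟩ : ∃ C : β → ℝ, ∀ w, C w = ∑ A ∈ (J.erase w).powersetCard k,
      ∑ j ∈ J.erase w \ A, (g (insert w A) - g (insert j A)) ^ 2 := ⟨_, fun _ => rfl⟩
  obtain ⟨b, hb⟩ : ∃ b : β → ℝ, ∀ w, b w = ∑ A ∈ (J.erase w).powersetCard k, g (insert w A) :=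
    ⟨_, fun _ => rfl⟩
  have hsite : ∀ w ∈ J, 2 * (s : ℝ) * (N0 * N1 * (N * Q - Tot ^ 2))
      ≤ N * N0 * N1 * (D - 2 * C w) + 2 * (s : ℝ) * (N * b w - N1 * Tot) ^ 2 := by
    intro w hw
    have hcw : (J.erase w).card = s := by rw [card_erase_of_mem hw, hJ]; rfl
    have i0 := ih (J.erase w) hcw (k + 1) g
    have i1 := ih (J.erase w) hcw k (fun A => g (insert w A))
    have hsplit := jD_split_at hw k g
    have hT := sum_split_at hw k g
    have hQs := sum_split_at hw k (fun S => g S ^ 2)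
    unfold jV at i0 i1
    rw [card_powersetCard, hcw, ← hN0] at i0
    rw [card_powersetCard, hcw, ← hN1] at i1
    rw [← hDdef, ← hC w] at hsplit
    rw [← hTot, ← hb w] at hT
    rw [← hQ] at hQs
    rw [← hb w] at i1
    generalize ∑ S ∈ (J.erase w).powersetCard (k + 1), g S = a at hT i0
    generalize ∑ S ∈ (J.erase w).powersetCard (k + 1), g S ^ 2 = qa at hQs i0
    generalize ∑ A ∈ (J.erase w).powersetCard k, g (insert w A) ^ 2 = qb at hQs i1
    generalize jD (J.erase w) (k + 1) g = D0 at hsplit i0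
    generalize jD (J.erase w) k (fun A => g (insert w A)) = D1 at hsplit i1
    have e0 := mul_le_mul_of_nonneg_left i0 (by positivity : 0 ≤ N * N1)
    have e1 := mul_le_mul_of_nonneg_left i1 (by positivity : 0 ≤ N * N0)
    have hid : N0 * N1 * (N * Q - Tot ^ 2)
        = N * N1 * (N0 * qa - a ^ 2) + N * N0 * (N1 * qb - b w ^ 2)
          + (N * b w - N1 * Tot) ^ 2 := by
      rw [hT, hQs, hNsum]; ring
    have hD01 : D - 2 * C w = D0 + D1 := by rw [hsplit]; ring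
    rw [hD01]
    calc 2 * (s : ℝ) * (N0 * N1 * (N * Q - Tot ^ 2))
        = N * N1 * (2 * (s : ℝ) * (N0 * qa - a ^ 2)) + N * N0 * (2 * (s : ℝ) * (N1 * qb - b w ^ 2))
          + 2 * (s : ℝ) * (N * b w - N1 * Tot) ^ 2 := by rw [hid]; ring
      _ ≤ N * N1 * (N0 * D0) + N * N0 * (N1 * D1)
          + 2 * (s : ℝ) * (N * b w - N1 * Tot) ^ 2 := by linarith
      _ = N * N0 * N1 * (D0 + D1) + 2 * (s : ℝ) * (N * b w - N1 * Tot) ^ 2 := by ring
  have hsum := Finset.sum_le_sum hsite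
  have hCsum : ∑ w ∈ J, C w = D := by
    rw [hDdef, ← sum_cross J k g]
    exact sum_congr rfl (fun w _ => hC w)
  have hbet := between_bound hJ k g
  rw [← hN, ← hN1, ← hM, ← hTot, hjV] at hbet
  have hbet' : ∑ w ∈ J, (N * b w - N1 * Tot) ^ 2 ≤ N * M * (N * Q - Tot ^ 2) := by
    refine le_trans (le_of_eq ?_) hbet
    exact sum_congr rfl (fun w _ => by rw [hb w])
  have hL : ∑ w ∈ J, 2 * (s : ℝ) * (N0 * N1 * (N * Q - Tot ^ 2))
      = ((s : ℝ) + 1) * (2 * (s : ℝ) * (N0 * N1 * (N * Q - Tot ^ 2))) := by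
    rw [sum_const, hJ, nsmul_eq_mul]; push_cast; ring
  have hR : ∑ w ∈ J, (N * N0 * N1 * (D - 2 * C w) + 2 * (s : ℝ) * (N * b w - N1 * Tot) ^ 2)
      = N * N0 * N1 * (((s : ℝ) + 1) * D - 2 * D)
        + 2 * (s : ℝ) * ∑ w ∈ J, (N * b w - N1 * Tot) ^ 2 := by
    rw [sum_add_distrib, ← mul_sum, ← mul_sum, sum_sub_distrib, ← mul_sum, hCsum, sum_const, hJ,
      nsmul_eq_mul]
    push_cast; ring
  rw [hL, hR] at hsum
  rw [hjV, hcardP, ← hDdef]
  have hs1 : (0 : ℝ) < (s : ℝ) - 1 := by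
    have : (2 : ℝ) ≤ (s : ℝ) := by exact_mod_cast hs
    linarith
  have hs0 : (0 : ℝ) ≤ (s : ℝ) := Nat.cast_nonneg _
  have hc : 0 < ((s : ℝ) - 1) * (N0 * N1) := by positivity
  have hfin : ((s : ℝ) - 1) * (N0 * N1) * (2 * ((s : ℝ) + 1) * (N * Q - Tot ^ 2))
      ≤ ((s : ℝ) - 1) * (N0 * N1) * (N * D) := by
    have h2 : 2 * (s : ℝ) * ∑ w ∈ J, (N * b w - N1 * Tot) ^ 2
        ≤ 2 * (s : ℝ) * (N * M * (N * Q - Tot ^ 2)) :=
      mul_le_mul_of_nonneg_left hbet' (by positivity)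
    have h3 : 2 * (s : ℝ) * (N * M * (N * Q - Tot ^ 2))
        = 2 * (((s : ℝ) + 1) * N0 * N1) * (N * Q - Tot ^ 2) := by
      rw [← hMid]; ring
    nlinarith
  exact le_of_mul_le_mul_left hfin hc

/-- **Sharp Poincare inequality for the Johnson graph** on the `k`-subsets of `J`:
`2 |J| (N Σ g² - (Σ g)²) ≤ N * jD`, i.e. the Laplacian gap is `|J|`. -/
theorem johnson_sharp_aux : ∀ (s : ℕ) (J : Finset β), J.card = s →
    ∀ (k : ℕ) (g : Finset β → ℝ),
    2 * (s : ℝ) * jV (J.powersetCard k) g ≤ ((J.powersetCard k).card : ℝ) * jD J k g := by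
  intro s
  induction s with
  | zero =>
    intro J hJ k g
    rw [Nat.cast_zero, mul_zero, zero_mul]
    exact mul_nonneg (Nat.cast_nonneg _) (jD_nonneg J k g)
  | succ s ih =>
    intro J hJ k g
    have hD := jD_nonneg J k g
    have hN : (0 : ℝ) ≤ ((J.powersetCard k).card : ℝ) := Nat.cast_nonneg _
    rcases Nat.lt_or_ge s 2 with hs | hs
    · have h1 := johnson_abs J k g
      have h2 := jV_nonneg (J.powersetCard k) g
      have h3 : (2 : ℝ) * ((s + 1 : ℕ) : ℝ) ≤ 4 := by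
        have : ((s + 1 : ℕ) : ℝ) ≤ 2 := by exact_mod_cast (by omega : s + 1 ≤ 2)
        linarith
      nlinarith
    · rcases k with _ | k
      · have hc : (J.powersetCard 0).card ≤ 1 := by simp
        rw [jV_eq_zero_of_card_le_one _ _ hc, mul_zero]
        exact mul_nonneg hN hD
      · rcases Nat.lt_or_ge s (k + 1) with hk | hk
        · have hc : (J.powersetCard (k + 1)).card ≤ 1 := by
            rw [card_powersetCard, hJ]
            rcases Nat.lt_or_ge (s + 1) (k + 1) with h | h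
            · rw [Nat.choose_eq_zero_of_lt h]; omega
            · have : k + 1 = s + 1 := by omega
              rw [this, Nat.choose_self]
          rw [jV_eq_zero_of_card_le_one _ _ hc, mul_zero]
          exact mul_nonneg hN hD
        · have := sharp_step hs ih hJ hk g
          push_cast
          exact this

theorem johnson_sharp (J : Finset β) (k : ℕ) (g : Finset β → ℝ) :
    2 * (J.card : ℝ) * jV (J.powersetCard k) g ≤ ((J.powersetCard k).card : ℝ) * jD J k g :=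
  johnson_sharp_aux J.card J rfl k g

end Sharp

end JD

end KTV
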